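import Vale.Agent.P171.Defs
import Vale.Agent.P171.Final

open Vale.Agent.P171

/-- There is a measurable, locally bounded, stable and tempered radial pair potential on `ℝ³`
whose infinite-volume pressure exists for all activities but is not differentiable, as a function
of the activity, at some point (for some inverse temperature). -/
theorem Vale.Agent.Results.P171.Main.result :
    ∃ φ : ℝ → ℝ, Measurable φ ∧ LocallyBoundedPos φ ∧ IsStable φ ∧ IsTempered φ ∧
      ∃ β : ℝ, 0 < β ∧ ∃ P : ℝ → ℝ, IsPressure φ β P ∧
        ∃ z : ℝ, 0 < z ∧ ¬ DifferentiableAt ℝ P z :=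
  main_result
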